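import Mathlib

/-! P305, row C of ConvexPseudoDisks (helper262): crossing of two planar convex sets.
Homothets of one convex set do not cross, sets with convex complement (half-planes) cross no
convex set, and two crossing convex sets have both differences disconnected. -/

set_option autoImplicit false

namespace Vale.Agent.P305.H262

/-- Two planar sets cross: a segment with ends in `a \ b` meets a segment with ends in `b \ a`. -/
def Crossing (a b : Set (ℝ × ℝ)) : Prop :=
  ∃ N ∈ a \ b, ∃ S ∈ a \ b, ∃ W ∈ b \ a, ∃ E ∈ b \ a, (segment ℝ N S ∩ segment ℝ W E).Nonempty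

theorem Crossing.symm {a b : Set (ℝ × ℝ)} (h : Crossing a b) : Crossing b a := by
  obtain ⟨N, hN, S, hS, W, hW, E, hE, h⟩ := h
  exact ⟨W, hW, E, hE, N, hN, S, hS, by rwa [Set.inter_comm]⟩

theorem crossing_comm {a b : Set (ℝ × ℝ)} : Crossing a b ↔ Crossing b a :=
  ⟨Crossing.symm, Crossing.symm⟩

/-- A convex set whose complement is convex (a half-plane) crosses no convex set. -/
theorem not_crossing_of_compl {a b : Set (ℝ × ℝ)} (ha : Convex ℝ a) (hb : Convex ℝ b)
    (hbc : Convex ℝ bᶜ) : ¬ Crossing a b := by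
  rintro ⟨N, hN, S, hS, W, hW, E, hE, q, h1, h2⟩
  have hc : Convex ℝ (a \ b) := by
    have h : a \ b = a ∩ bᶜ := rfl
    rw [h]
    exact ha.inter hbc
  exact (hc.segment_subset hN hS h1).2 (hb.segment_subset hW.1 hE.1 h2)

theorem comb_neg {t t' x y : ℝ} (ht : 0 ≤ t) (ht' : 0 ≤ t') (h : t + t' = 1) (hx : x < 0)
    (hy : y < 0) : t * x + t' * y < 0 := by
  rcases ht.lt_or_eq with h0 | h0
  · have h1 := mul_neg_of_pos_of_neg h0 hx
    have h2 := mul_nonpos_of_nonneg_of_nonpos ht' hy.le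
    linarith
  · have h1 : t' = 1 := by linarith
    rw [← h0, h1]
    linarith

/-- The affine function of the line `W E`. -/
def lin (W E P : ℝ × ℝ) : ℝ := (E.1 - W.1) * (P.2 - W.2) - (E.2 - W.2) * (P.1 - W.1)

theorem lin_swap (W E P : ℝ × ℝ) : lin E W P = - lin W E P := by
  simp only [lin]; ring

theorem lin_comb (W E P Q : ℝ × ℝ) {t t' : ℝ} (h : t + t' = 1) :
    lin W E (t • P + t' • Q) = t * lin W E P + t' * lin W E Q := by
  simp only [lin, Prod.fst_add, Prod.smul_fst, Prod.snd_add, Prod.smul_snd, smul_eq_mul]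
  have : t = 1 - t' := by linarith
  rw [this]
  ring

theorem exists_smul {W E X : ℝ × ℝ} (hWE : W ≠ E)
    (h : (E.1 - W.1) * X.2 - (E.2 - W.2) * X.1 = 0) : ∃ m : ℝ, X = m • (E - W) := by
  by_cases h1 : E.1 - W.1 = 0
  · have h2 : E.2 - W.2 ≠ 0 := by
      intro h2
      exact hWE (Prod.ext (by linarith) (by linarith))
    refine ⟨X.2 / (E.2 - W.2), ?_⟩
    have h3 : X.1 = 0 := by
      rw [h1, zero_mul, zero_sub, neg_eq_zero] at h
      exact (mul_eq_zero.1 h).resolve_left h2
    refine Prod.ext ?_ ?_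
    · simp only [Prod.smul_fst, Prod.fst_sub, smul_eq_mul, h1, h3, mul_zero]
    · simp only [Prod.smul_snd, Prod.snd_sub, smul_eq_mul]
      field_simp
  · refine ⟨X.1 / (E.1 - W.1), ?_⟩
    refine Prod.ext ?_ ?_
    · simp only [Prod.smul_fst, Prod.fst_sub, smul_eq_mul]
      field_simp
    · simp only [Prod.smul_snd, Prod.snd_sub, smul_eq_mul]
      field_simp
      linarith

theorem mem3 {C : Set (ℝ × ℝ)} (hC : Convex ℝ C) {x y z P : ℝ × ℝ} (hx : x ∈ C) (hy : y ∈ C)
    (hz : z ∈ C) {α β γ : ℝ} (hα : 0 ≤ α) (hβ : 0 ≤ β) (hγ : 0 ≤ γ) (hs : 0 < α + β + γ)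
    (h : (α + β + γ) • P = α • x + β • y + γ • z) : P ∈ C := by
  have h1 : P = (α / (α + β + γ)) • x + (β / (α + β + γ)) • y + (γ / (α + β + γ)) • z := by
    have h2 : P = (α + β + γ)⁻¹ • ((α + β + γ) • P) := by
      rw [smul_smul, inv_mul_cancel₀ hs.ne', one_smul]
    rw [h2, h]
    simp only [div_eq_inv_mul, smul_add, smul_smul]
  rw [h1]
  have h3 := hC.sum_mem (t := Finset.univ)
    (w := ![α / (α + β + γ), β / (α + β + γ), γ / (α + β + γ)]) (z := ![x, y, z]) ?_ ?_ ?_
  · simpa [Fin.sum_univ_three] using h3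
  · intro i _
    fin_cases i
    · exact div_nonneg hα hs.le
    · exact div_nonneg hβ hs.le
    · exact div_nonneg hγ hs.le
  · simp only [Fin.sum_univ_three, Matrix.cons_val_zero, Matrix.cons_val_one, Matrix.cons_val]
    field_simp
  · intro i _
    fin_cases i
    · exact hx
    · exact hy
    · exact hz

/-- Points of `a` on the line through two points of `b \ a` are in `b`, if the segment between
them meets `a`. -/
theorem mem_of_lin {a b : Set (ℝ × ℝ)} (ha : Convex ℝ a) (hb : Convex ℝ b) {W E q : ℝ × ℝ}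
    (hW : W ∈ b \ a) (hE : E ∈ b \ a) (hqa : q ∈ a) (hq : q ∈ segment ℝ W E) {P : ℝ × ℝ}
    (hP : P ∈ a) (hFP : lin W E P = 0) : P ∈ b := by
  obtain ⟨u, u', hu, hu', huu, hq2⟩ := hq
  have hWE : W ≠ E := by
    rintro rfl
    have : q = W := by rw [← hq2, ← add_smul, huu, one_smul]
    exact hW.2 (this ▸ hqa)
  have hpar : ∃ m : ℝ, P - W = m • (E - W) := exists_smul hWE hFP
  obtain ⟨m, hm⟩ := hpar
  obtain rfl : P = W + m • (E - W) := by rw [← hm]; abel
  by_cases hm0 : 0 ≤ m
  · by_cases hm1 : m ≤ 1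
    · exact mem3 hb hW.1 hE.1 hE.1 (α := 1 - m) (β := m) (γ := 0) (by linarith) hm0 le_rfl
        (by linarith) (by module)
    · push Not at hm1
      exfalso
      apply hE.2
      refine mem3 ha hqa hP hP (α := m - 1) (β := 1 - u') (γ := 0) (by linarith) (by linarith)
        le_rfl (by linarith) ?_
      rw [← hq2, show u = 1 - u' by linarith]
      module
  · push Not at hm0
    exfalso
    apply hW.2
    refine mem3 ha hqa hP hP (α := -m) (β := u') (γ := 0) (by linarith) hu' le_rfl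
      (by linarith) ?_
    rw [← hq2, show u = 1 - u' by linarith]
    module

/-- Two crossing convex sets: the difference is disconnected. -/
theorem Crossing.not_isPreconnected {a b : Set (ℝ × ℝ)} (ha : Convex ℝ a) (hb : Convex ℝ b)
    (h : Crossing a b) : ¬ IsPreconnected (a \ b) := by
  obtain ⟨N, hN, S, hS, W, hW, E, hE, q, h1, h2⟩ := h
  have hqa : q ∈ a := ha.segment_subset hN.1 hS.1 h1
  have hline : ∀ P ∈ a, lin W E P = 0 → P ∈ b := fun P hP h =>
    mem_of_lin ha hb hW hE hqa h2 hP h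
  obtain ⟨t, t', ht, ht', htt, hq1⟩ := h1
  obtain ⟨u, u', hu, hu', huu, hq2⟩ := h2
  have hFc : Continuous (lin W E) := by
    unfold lin; fun_prop
  have hFq : lin W E q = 0 := by
    rw [← hq2, lin_comb W E W E huu]
    simp only [lin]
    ring
  have hFq' : t * lin W E N + t' * lin W E S = 0 := by
    rw [← hFq, ← hq1, lin_comb W E N S htt]
  have hFN : lin W E N ≠ 0 := fun h => hN.2 (hline N hN.1 h)
  have hFS : lin W E S ≠ 0 := fun h => hS.2 (hline S hS.1 h)
  intro hc
  have key : ∀ N' ∈ a \ b, ∀ S' ∈ a \ b, lin W E N' < 0 → 0 < lin W E S' → False := by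
    intro N' hN' S' hS' h1 h2
    have himg : IsPreconnected (lin W E '' (a \ b)) := hc.image _ hFc.continuousOn
    have h0 : (0 : ℝ) ∈ lin W E '' (a \ b) :=
      himg.ordConnected.out (Set.mem_image_of_mem _ hN') (Set.mem_image_of_mem _ hS')
        ⟨h1.le, h2.le⟩
    obtain ⟨P, hP, hP0⟩ := h0
    exact hP.2 (hline P hP.1 hP0)
  rcases lt_or_gt_of_ne hFN with h | h
  · rcases lt_or_gt_of_ne hFS with h' | h'
    · exact absurd hFq' (comb_neg ht ht' htt h h').ne
    · exact key N hN S hS h h'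
  · rcases lt_or_gt_of_ne hFS with h' | h'
    · exact key S hS N hN h' h
    · have := comb_neg ht ht' htt (neg_lt_zero.2 h) (neg_lt_zero.2 h')
      linarith

/-- Convex sets with one connected difference do not cross. -/
theorem not_crossing_of_isPreconnected {a b : Set (ℝ × ℝ)} (ha : Convex ℝ a) (hb : Convex ℝ b)
    (h : IsPreconnected (a \ b) ∨ IsPreconnected (b \ a)) : ¬ Crossing a b := by
  intro hc
  rcases h with h | h
  · exact hc.not_isPreconnected ha hb h
  · exact hc.symm.not_isPreconnected hb ha h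

/-- Core of the homothety argument. -/
theorem core {a b : Set (ℝ × ℝ)} (ha : Convex ℝ a) (hb : Convex ℝ b) {l : ℝ} (hl : 0 ≤ l)
    (hl1 : l ≤ 1) (z : ℝ × ℝ) (hba : ∀ P ∈ b, l • P + z ∈ a) {S S' W E q : ℝ × ℝ}
    (hS : S ∈ a \ b) (hS' : S' ∈ b) (hSS : S = l • S' + z) (hW : W ∈ b \ a) (hE : E ∈ b \ a)
    (hqa : q ∈ a) (hq : q ∈ segment ℝ W E) (hWE : W ≠ E)
    (hZ : 0 ≤ (E.1 - W.1) * (z.2 - (1 - l) * W.2) - (E.2 - W.2) * (z.1 - (1 - l) * W.1))
    (hFS : lin W E S < 0) : False := by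
  obtain ⟨u, u', hu, hu', huu, hq2⟩ := hq
  obtain ⟨Z, hZd⟩ : ∃ Z, Z = (E.1 - W.1) * (z.2 - (1 - l) * W.2) -
      (E.2 - W.2) * (z.1 - (1 - l) * W.1) := ⟨_, rfl⟩
  obtain ⟨F, hFd⟩ : ∃ F, F = - lin W E S := ⟨_, rfl⟩
  rw [← hZd] at hZ
  have hF : 0 < F := by rw [hFd]; linarith
  obtain ⟨w, hw⟩ : ∃ w, w = Z + F * (1 - l) := ⟨_, rfl⟩
  have hpar : ∃ m : ℝ, Z • (S - W) + F • (z - (1 - l) • W) = m • (E - W) := by
    apply exists_smul hWE
    simp only [Prod.fst_add, Prod.smul_fst, Prod.snd_add, Prod.smul_snd, smul_eq_mul,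
      Prod.fst_sub, Prod.snd_sub]
    have e1 : (E.1 - W.1) * (S.2 - W.2) - (E.2 - W.2) * (S.1 - W.1) = -F := by
      rw [hFd, neg_neg]; rfl
    linear_combination Z * e1 - F * hZd
  obtain ⟨m, hm⟩ := hpar
  have hw0 : 0 ≤ w := by
    rw [hw]
    have : 0 ≤ F * (1 - l) := mul_nonneg hF.le (by linarith)
    linarith
  have hV : Z • S + F • z = (w - m) • W + m • E := by
    have e : Z • S + F • z = (Z • (S - W) + F • (z - (1 - l) • W)) + (Z + F * (1 - l)) • W := by
      module
    rw [e, hm, ← hw]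
    module
  have hz : z = S - l • S' := by rw [hSS]; abel
  by_cases hm0 : 0 ≤ m
  · by_cases hm1 : m ≤ w
    · -- the point S is in b
      apply hS.2
      have h1 : (Z + F) • S = (w - m) • W + m • E + (l * F) • S' := by
        rw [← hV, hz]
        module
      have h2 : (w - m) + m + l * F = Z + F := by rw [hw]; ring
      refine mem3 hb hW.1 hE.1 hS' (α := w - m) (β := m) (γ := l * F) (by linarith) hm0
        (mul_nonneg hl hF.le) ?_ ?_
      · rw [h2]; linarith
      · rw [h2, h1]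
    · -- `E ∈ a`
      push Not at hm1
      apply hE.2
      refine mem3 ha hS.1 (hba E hE.1) hqa (α := u * Z) (β := u * F) (γ := m - w)
        (mul_nonneg hu hZ) (mul_nonneg hu hF.le) (by linarith) ?_ ?_
      · have h1 := mul_nonneg hu hZ
        have h2 := mul_nonneg hu hF.le
        linarith
      · have h3 : (u * Z) • S + (u * F) • (l • E + z) + (m - w) • q =
            u • (Z • S + F • z) + (u * F * l) • E + (m - w) • q := by module
        rw [h3, hV, ← hq2]
        have h4 : u' = 1 - u := by linarith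
        have h5 : Z = w - F * (1 - l) := by linarith
        rw [h4, h5]
        module
  · push Not at hm0
    apply hW.2
    refine mem3 ha hS.1 (hba W hW.1) hqa (α := u' * Z) (β := u' * F) (γ := -m)
      (mul_nonneg hu' hZ) (mul_nonneg hu' hF.le) (by linarith) ?_ ?_
    · have h1 := mul_nonneg hu' hZ
      have h2 := mul_nonneg hu' hF.le
      linarith
    · have h3 : (u' * Z) • S + (u' * F) • (l • W + z) + (-m) • q =
          u' • (Z • S + F • z) + (u' * F * l) • W + (-m) • q := by module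
      rw [h3, hV, ← hq2]
      have h4 : u = 1 - u' := by linarith
      have h5 : Z = w - F * (1 - l) := by linarith
      rw [h4, h5]
      module

/-- The image of a planar convex set under a contracting homothety or a translation does not
cross the set. -/
theorem not_crossing_of_homothety {a b : Set (ℝ × ℝ)} (ha : Convex ℝ a) (hb : Convex ℝ b) {l : ℝ}
    (hl : 0 ≤ l) (hl1 : l ≤ 1) (z : ℝ × ℝ) (hab : ∀ P ∈ a, ∃ P' ∈ b, P = l • P' + z)
    (hba : ∀ P ∈ b, l • P + z ∈ a) : ¬ Crossing a b := by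
  rintro ⟨N, hN, S, hS, W, hW, E, hE, q, h1, h2⟩
  have hqa : q ∈ a := ha.segment_subset hN.1 hS.1 h1
  have hline : ∀ P ∈ a \ b, lin W E P ≠ 0 := fun P hP h =>
    hP.2 (mem_of_lin ha hb hW hE hqa h2 hP.1 h)
  have hWE : W ≠ E := by
    rintro rfl
    rw [segment_same] at h2
    exact hW.2 (h2 ▸ hqa)
  have hq0 : lin W E q = 0 := by
    obtain ⟨u, u', hu, hu', huu, hq2⟩ := h2
    rw [← hq2, lin_comb W E W E huu]
    simp only [lin]
    ring
  -- for one orientation of the line
  have main : ∀ W E : ℝ × ℝ, W ∈ b \ a → E ∈ b \ a → q ∈ segment ℝ W E → W ≠ E →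
      (∀ P ∈ a \ b, lin W E P ≠ 0) → lin W E q = 0 →
      0 ≤ (E.1 - W.1) * (z.2 - (1 - l) * W.2) - (E.2 - W.2) * (z.1 - (1 - l) * W.1) → False := by
    intro W E hW hE hq hWE hline hq0 hZ
    obtain ⟨t, t', ht, ht', htt, hq1⟩ := h1
    rw [← hq1, lin_comb W E N S htt] at hq0
    rcases lt_or_gt_of_ne (hline N hN) with h | h
    · obtain ⟨N', hN', hNN⟩ := hab N hN.1
      exact core ha hb hl hl1 z hba hN hN' hNN hW hE hqa hq hWE hZ h
    · rcases lt_or_gt_of_ne (hline S hS) with h' | h'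
      · obtain ⟨S', hS', hSS⟩ := hab S hS.1
        exact core ha hb hl hl1 z hba hS hS' hSS hW hE hqa hq hWE hZ h'
      · have := comb_neg ht ht' htt (neg_lt_zero.2 h) (neg_lt_zero.2 h')
        linarith
  rcases le_total 0 ((E.1 - W.1) * (z.2 - (1 - l) * W.2) - (E.2 - W.2) * (z.1 - (1 - l) * W.1))
    with h | h
  · exact main W E hW hE h2 hWE hline hq0 h
  · refine main E W hE hW (by rwa [segment_symm]) hWE.symm ?_ ?_ ?_
    · intro P hP
      rw [lin_swap]
      exact neg_ne_zero.2 (hline P hP)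
    · rw [lin_swap, hq0, neg_zero]
    · nlinarith [h]

theorem convex_homothet {K : Set (ℝ × ℝ)} (hK : Convex ℝ K) (x : ℝ × ℝ) (r : ℝ) :
    Convex ℝ ((fun k : ℝ × ℝ => x + r • k) '' K) := by
  rintro _ ⟨p, hp, rfl⟩ _ ⟨q, hq, rfl⟩ t t' ht ht' htt
  refine ⟨t • p + t' • q, hK hp hq ht ht' htt, ?_⟩
  have : t = 1 - t' := by linarith
  rw [this]
  module

/-- Homothets `x + r K`, `y + s K` (`r, s ≥ 0`) of one convex set in the plane do not cross. -/
theorem homothets_not_crossing {K : Set (ℝ × ℝ)} (hK : Convex ℝ K) (x y : ℝ × ℝ) {r s : ℝ}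
    (hr : 0 ≤ r) (hs : 0 ≤ s) :
    ¬ Crossing ((fun k : ℝ × ℝ => x + r • k) '' K) ((fun k : ℝ × ℝ => y + s • k) '' K) := by
  -- the smaller one first
  have key : ∀ (x y : ℝ × ℝ) (r s : ℝ), 0 ≤ r → 0 < s → r ≤ s →
      ¬ Crossing ((fun k : ℝ × ℝ => x + r • k) '' K) ((fun k : ℝ × ℝ => y + s • k) '' K) := by
    intro x y r s hr hs hrs
    refine not_crossing_of_homothety (convex_homothet hK x r) (convex_homothet hK y s)
      (l := r / s) (by positivity) (by rw [div_le_one hs]; exact hrs) (x - (r / s) • y) ?_ ?_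
    · rintro _ ⟨k, hk, rfl⟩
      refine ⟨y + s • k, ⟨k, hk, rfl⟩, ?_⟩
      have e : (r / s) • (y + s • k) + (x - (r / s) • y) = x + (r / s * s) • k := by module
      rw [e, div_mul_cancel₀ _ hs.ne']
    · rintro _ ⟨k, hk, rfl⟩
      refine ⟨k, hk, ?_⟩
      have e : (r / s) • (y + s • k) + (x - (r / s) • y) = x + (r / s * s) • k := by module
      change x + r • k = (r / s) • (y + s • k) + (x - (r / s) • y)
      rw [e, div_mul_cancel₀ _ hs.ne']
  have zero : ∀ (x y : ℝ × ℝ) (r s : ℝ), s = 0 →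
      ¬ Crossing ((fun k : ℝ × ℝ => x + r • k) '' K) ((fun k : ℝ × ℝ => y + s • k) '' K) := by
    rintro x y r s rfl ⟨N, hN, S, hS, W, hW, E, hE, q, h1, h2⟩
    obtain ⟨⟨k, hk, rfl⟩, hW2⟩ := hW
    obtain ⟨⟨k', hk', rfl⟩, hE2⟩ := hE
    simp only [zero_smul, add_zero, segment_same] at h2
    have hqa := (convex_homothet hK x r).segment_subset hN.1 hS.1 h1
    apply hW2
    simp only [zero_smul, add_zero]
    exact h2 ▸ hqa
  rcases hs.lt_or_eq with hs0 | hs0
  · rcases le_total r s with h | h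
    · exact key x y r s hr hs0 h
    · intro hc
      exact key y x s r hs (lt_of_lt_of_le hs0 h) h hc.symm
  · exact zero x y r s hs0.symm

end Vale.Agent.P305.H262
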