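import Vale.Agent.P305.R2.H434.Spec
import Vale.Agent.P305.R2.H262.NoCross

/-! P305, ConvexPseudoDisks: rows C1, C2 and the corrected row C3 in the literal form of
helper434. -/

set_option autoImplicit false

namespace Vale.Agent.P305.H434

theorem nonCrossing_iff {a b : Set (ℝ × ℝ)} : NonCrossing a b ↔ ¬ H262.Crossing a b := by
  constructor
  · rintro h ⟨N, hN, S, hS, W, hW, E, hE, q, h1, h2⟩
    exact Set.disjoint_left.1 (h N hN S hS W hW E hE) h1 h2
  · intro h N hN S hS W hW E hE
    rw [Set.disjoint_left]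
    intro q h1 h2
    exact h ⟨N, hN, S, hS, W, hW, E, hE, q, h1, h2⟩

theorem nonCrossing_comm {a b : Set (ℝ × ℝ)} : NonCrossing a b ↔ NonCrossing b a := by
  rw [nonCrossing_iff, nonCrossing_iff, H262.crossing_comm]

/-- row C2 -/
theorem homot : StC2 := fun _ x y _ _ hK hr hs =>
  nonCrossing_iff.2 (H262.homothets_not_crossing hK x y hr hs)

/-- row C1 -/
theorem conn : StC1 := fun _ _ ha hb h =>
  nonCrossing_iff.2 (H262.not_crossing_of_isPreconnected ha hb (Or.inl h))

/-- row C3, with `b` convex -/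
theorem half {a b : Set (ℝ × ℝ)} (ha : Convex ℝ a) (hb : Convex ℝ b) (hbc : Convex ℝ bᶜ) :
    NonCrossing a b :=
  nonCrossing_iff.2 (H262.not_crossing_of_compl ha hb hbc)

end Vale.Agent.P305.H434
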